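import Mathlib

namespace Vale.Agent.Results.P038.VertexTransitiveSNC

open scoped Pointwise

/-! ### A Kemperman-type inequality in an arbitrary group

If `1 ∈ A ∩ B` and `1 = a * b` with `a ∈ A`, `b ∈ B` forces `a = 1`, then
`|A| + |B| ≤ |A * B| + 1`. -/

section Kemperman

variable {G : Type*} [Group G] [DecidableEq G]

/-- The hypothesis: `1` lies in both sets and is uniquely represented as a product. -/
def UniqueOne (A B : Finset G) : Prop :=
  (1 : G) ∈ A ∧ (1 : G) ∈ B ∧ ∀ a ∈ A, ∀ b ∈ B, a * b = 1 → a = 1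

theorem card_image_mul_right (A : Finset G) (x : G) : (A.image (· * x)).card = A.card :=
  Finset.card_image_of_injective _ (mul_left_injective x)

theorem card_image_mul_left (B : Finset G) (x : G) : (B.image (x * ·)).card = B.card :=
  Finset.card_image_of_injective _ (mul_right_injective x)

/-- First components of the two transforms have total size `2 |A|`. -/
theorem card_transform_fst (A : Finset G) (x : G) :
    (A ∪ A.image (· * x)).card + (A ∩ A.image (· * x⁻¹)).card = 2 * A.card := by
  have h1 : (A ∩ A.image (· * x⁻¹)).card = (A ∩ A.image (· * x)).card := by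
    rw [← card_image_mul_right (A ∩ A.image (· * x⁻¹)) x]
    congr 1
    ext c
    simp only [Finset.mem_image, Finset.mem_inter]
    constructor
    · rintro ⟨a, ⟨ha, ⟨a0, ha0, rfl⟩⟩, rfl⟩
      exact ⟨by simpa using ha0, ⟨a0 * x⁻¹, ha, rfl⟩⟩
    · rintro ⟨hc, ⟨a, ha, rfl⟩⟩
      exact ⟨a, ⟨ha, ⟨a * x, hc, by simp⟩⟩, rfl⟩
  rw [h1, Finset.card_union_add_card_inter, card_image_mul_right]
  ring

/-- Second components of the two transforms have total size `2 |B|`. -/
theorem card_transform_snd (B : Finset G) (x : G) :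
    (B ∩ B.image (x⁻¹ * ·)).card + (B ∪ B.image (x * ·)).card = 2 * B.card := by
  have h1 : (B ∩ B.image (x⁻¹ * ·)).card = (B ∩ B.image (x * ·)).card := by
    rw [← card_image_mul_left (B ∩ B.image (x⁻¹ * ·)) x]
    congr 1
    ext c
    simp only [Finset.mem_image, Finset.mem_inter]
    constructor
    · rintro ⟨b, ⟨hb, ⟨b0, hb0, rfl⟩⟩, rfl⟩
      exact ⟨by simpa using hb0, ⟨x⁻¹ * b0, hb, rfl⟩⟩
    · rintro ⟨hc, ⟨b, hb, rfl⟩⟩
      exact ⟨b, ⟨hb, ⟨x * b, hc, by simp⟩⟩, rfl⟩
  rw [h1, add_comm, Finset.card_union_add_card_inter, card_image_mul_left]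
  ring

theorem right_mul_subset (A B : Finset G) (x : G) :
    (A ∪ A.image (· * x)) * (B ∩ B.image (x⁻¹ * ·)) ⊆ A * B := by
  intro c hc
  rw [Finset.mem_mul] at hc ⊢
  obtain ⟨a, ha, b, hb, rfl⟩ := hc
  rw [Finset.mem_inter, Finset.mem_image] at hb
  rw [Finset.mem_union, Finset.mem_image] at ha
  rcases ha with ha | ⟨a0, ha0, rfl⟩
  · exact ⟨a, ha, b, hb.1, rfl⟩
  · obtain ⟨b0, hb0, rfl⟩ := hb.2
    exact ⟨a0, ha0, b0, hb0, by group⟩

theorem left_mul_subset (A B : Finset G) (x : G) :
    (A ∩ A.image (· * x⁻¹)) * (B ∪ B.image (x * ·)) ⊆ A * B := by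
  intro c hc
  rw [Finset.mem_mul] at hc ⊢
  obtain ⟨a, ha, b, hb, rfl⟩ := hc
  rw [Finset.mem_inter, Finset.mem_image] at ha
  rw [Finset.mem_union, Finset.mem_image] at hb
  rcases hb with hb | ⟨b0, hb0, rfl⟩
  · exact ⟨a, ha.1, b, hb, rfl⟩
  · obtain ⟨a0, ha0, rfl⟩ := ha.2
    exact ⟨a0, ha0, b0, hb0, by group⟩

theorem right_uniqueOne {A B : Finset G} {x : G} (h : UniqueOne A B) (hx : x ∈ B)
    (hx' : x⁻¹ ∉ B) : UniqueOne (A ∪ A.image (· * x)) (B ∩ B.image (x⁻¹ * ·)) := by
  obtain ⟨hA, hB, hU⟩ := h
  refine ⟨Finset.mem_union_left _ hA, ?_, ?_⟩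
  · rw [Finset.mem_inter, Finset.mem_image]
    exact ⟨hB, x, hx, by simp⟩
  · intro a ha b hb hab
    rw [Finset.mem_inter, Finset.mem_image] at hb
    rw [Finset.mem_union, Finset.mem_image] at ha
    rcases ha with ha | ⟨a0, ha0, rfl⟩
    · exact hU a ha b hb.1 hab
    · exfalso
      obtain ⟨b0, hb0, rfl⟩ := hb.2
      have h1 : a0 * b0 = 1 := by rw [← hab]; group
      have h2 : a0 = 1 := hU a0 ha0 b0 hb0 h1
      have h3 : b0 = 1 := by rw [h2, one_mul] at h1; exact h1
      apply hx'
      have := hb.1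
      rw [h3, mul_one] at this
      exact this

theorem left_uniqueOne {A B : Finset G} {x : G} (h : UniqueOne A B) (hx : x ∈ A)
    (hx' : x⁻¹ ∉ A) : UniqueOne (A ∩ A.image (· * x⁻¹)) (B ∪ B.image (x * ·)) := by
  obtain ⟨hA, hB, hU⟩ := h
  refine ⟨?_, Finset.mem_union_left _ hB, ?_⟩
  · rw [Finset.mem_inter, Finset.mem_image]
    exact ⟨hA, x, hx, by simp⟩
  · intro a ha b hb hab
    rw [Finset.mem_inter, Finset.mem_image] at ha
    rw [Finset.mem_union, Finset.mem_image] at hb
    rcases hb with hb | ⟨b0, hb0, rfl⟩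
    · exact hU a ha.1 b hb hab
    · exfalso
      obtain ⟨a0, ha0, rfl⟩ := ha.2
      have h1 : a0 * b0 = 1 := by rw [← hab]; group
      have h2 : a0 = 1 := hU a0 ha0 b0 hb0 h1
      apply hx'
      have := ha.1
      rw [h2, one_mul] at this
      exact this

theorem right_card_lt {B : Finset G} {x : G} (hB : (1 : G) ∈ B) (hx' : x⁻¹ ∉ B) :
    (B ∩ B.image (x⁻¹ * ·)).card < B.card := by
  apply Finset.card_lt_card
  refine ⟨Finset.inter_subset_left, ?_⟩
  intro hsub
  have h1 : B ⊆ B.image (x⁻¹ * ·) := fun b hb => (Finset.mem_inter.mp (hsub hb)).2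
  have h2 : B = B.image (x⁻¹ * ·) :=
    Finset.eq_of_subset_of_card_le h1 (le_of_eq (card_image_mul_left B x⁻¹))
  apply hx'
  rw [h2]
  exact Finset.mem_image.mpr ⟨1, hB, by simp⟩

/-- Auxiliary induction for Kemperman's inequality. -/
theorem kemperman_aux (U : Finset G) : ∀ (k b : ℕ) (A B : Finset G), A * B ⊆ U →
    A.card + B.card + k = 2 * U.card → B.card = b → UniqueOne A B →
    A.card + B.card ≤ (A * B).card + 1 := by
  intro k
  induction k using Nat.strong_induction_on with
  | _ k ihk =>
    intro b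
    induction b using Nat.strong_induction_on with
    | _ b ihb =>
      intro A B hU hk hb h
      obtain ⟨hA, hB, hUn⟩ := h
      have hAsub : A ⊆ A * B := fun a ha => by
        rw [Finset.mem_mul]; exact ⟨a, ha, 1, hB, mul_one a⟩
      have hBsub : B ⊆ A * B := fun c hc => by
        rw [Finset.mem_mul]; exact ⟨1, hA, c, hc, one_mul c⟩
      by_cases hcase : ∃ x, x ∈ A ∧ x ∈ B ∧ x ≠ 1
      · obtain ⟨x, hxA, hxB, hx1⟩ := hcase
        have hxB' : x⁻¹ ∉ B := by
          intro hmem
          exact hx1 (hUn x hxA x⁻¹ hmem (by simp))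
        have hxA' : x⁻¹ ∉ A := by
          intro hmem
          have := hUn x⁻¹ hmem x hxB (by simp)
          exact hx1 (by simpa using this)
        have c1 := card_transform_fst A x
        have c2 := card_transform_snd B x
        have hlt := right_card_lt (x := x) hB hxB'
        have hR := right_uniqueOne (x := x) ⟨hA, hB, hUn⟩ hxB hxB'
        have hL := left_uniqueOne (x := x) (B := B) ⟨hA, hB, hUn⟩ hxA hxA'
        have sR := right_mul_subset A B x
        have sL := left_mul_subset A B x
        have cR := Finset.card_le_card sR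
        have cL := Finset.card_le_card sL
        have uR : (A ∪ A.image (· * x)).card + (B ∩ B.image (x⁻¹ * ·)).card ≤ 2 * U.card := by
          have e1 : (A ∪ A.image (· * x)) ⊆ U := fun a ha => hU (sR (by
            rw [Finset.mem_mul]; exact ⟨a, ha, 1, hR.2.1, mul_one a⟩))
          have e2 : (B ∩ B.image (x⁻¹ * ·)) ⊆ U := fun c hc => hU (sR (by
            rw [Finset.mem_mul]; exact ⟨1, hR.1, c, hc, one_mul c⟩))
          have := Finset.card_le_card e1
          have := Finset.card_le_card e2
          omega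
        have uL : (A ∩ A.image (· * x⁻¹)).card + (B ∪ B.image (x * ·)).card ≤ 2 * U.card := by
          have e1 : (A ∩ A.image (· * x⁻¹)) ⊆ U := fun a ha => hU (sL (by
            rw [Finset.mem_mul]; exact ⟨a, ha, 1, hL.2.1, mul_one a⟩))
          have e2 : (B ∪ B.image (x * ·)) ⊆ U := fun c hc => hU (sL (by
            rw [Finset.mem_mul]; exact ⟨1, hL.1, c, hc, one_mul c⟩))
          have := Finset.card_le_card e1
          have := Finset.card_le_card e2
          omega
        by_cases hsum : A.card + B.card ≤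
            (A ∪ A.image (· * x)).card + (B ∩ B.image (x⁻¹ * ·)).card
        · -- use the right transform
          obtain ⟨k', hk'⟩ : ∃ k', (A ∪ A.image (· * x)).card +
              (B ∩ B.image (x⁻¹ * ·)).card + k' = 2 * U.card :=
            ⟨2 * U.card - ((A ∪ A.image (· * x)).card + (B ∩ B.image (x⁻¹ * ·)).card), by omega⟩
          have hk'le : k' ≤ k := by omega
          rcases Nat.lt_or_ge k' k with hlt' | hge'
          · have := ihk k' hlt' _ _ _ (sR.trans hU) hk' rfl hR
            omega
          · have hkk : k' = k := le_antisymm hk'le hge'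
            subst hkk
            have := ihb _ (by rw [← hb]; exact hlt) _ _ (sR.trans hU) hk' rfl hR
            omega
        · -- use the left transform
          obtain ⟨k', hk'⟩ : ∃ k', (A ∩ A.image (· * x⁻¹)).card +
              (B ∪ B.image (x * ·)).card + k' = 2 * U.card :=
            ⟨2 * U.card - ((A ∩ A.image (· * x⁻¹)).card + (B ∪ B.image (x * ·)).card), by omega⟩
          have hk'lt : k' < k := by omega
          have := ihk k' hk'lt _ _ _ (sL.trans hU) hk' rfl hL
          omega
      · -- `A ∩ B = {1}`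
        push Not at hcase
        have hinter : A ∩ B = {1} := by
          ext c
          simp only [Finset.mem_inter, Finset.mem_singleton]
          constructor
          · rintro ⟨h1, h2⟩
            exact hcase c h1 h2
          · rintro rfl
            exact ⟨hA, hB⟩
        have hun : A ∪ B ⊆ A * B := Finset.union_subset hAsub hBsub
        have := Finset.card_le_card hun
        have h3 := Finset.card_union_add_card_inter A B
        rw [hinter, Finset.card_singleton] at h3
        omega

/-- **Kemperman's inequality** (unique representation of `1`). -/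
theorem kemperman {A B : Finset G} (h : UniqueOne A B) :
    A.card + B.card ≤ (A * B).card + 1 := by
  have hA : A ⊆ A * B := fun a ha => by
    rw [Finset.mem_mul]; exact ⟨a, ha, 1, h.2.1, mul_one a⟩
  have hB : B ⊆ A * B := fun c hc => by
    rw [Finset.mem_mul]; exact ⟨1, h.1, c, hc, one_mul c⟩
  have h1 := Finset.card_le_card hA
  have h2 := Finset.card_le_card hB
  exact kemperman_aux (A * B) (2 * (A * B).card - (A.card + B.card)) B.card A B
    (Finset.Subset.refl _) (by omega) rfl h

/-- If `S` contains no element together with its inverse, then `|S| ≤ |S * S \ S|`. -/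
theorem card_le_card_mul_self_sdiff {S : Finset G} (hS : ∀ s ∈ S, s⁻¹ ∉ S) :
    S.card ≤ ((S * S) \ S).card := by
  have h1S : (1 : G) ∉ S := fun h => hS 1 h (by simpa using h)
  have hU : UniqueOne (insert 1 S) (insert 1 S) := by
    refine ⟨Finset.mem_insert_self _ _, Finset.mem_insert_self _ _, ?_⟩
    intro a ha b hb hab
    by_contra ha1
    have haS : a ∈ S := by
      rcases Finset.mem_insert.mp ha with h | h
      · exact absurd h ha1
      · exact h
    have hb' : b = a⁻¹ := eq_inv_of_mul_eq_one_right hab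
    rcases Finset.mem_insert.mp hb with h | h
    · apply ha1
      rw [h, mul_one] at hab
      exact hab
    · rw [hb'] at h
      exact hS a haS h
  have hk := kemperman hU
  have hsub : insert 1 S * insert 1 S ⊆ insert 1 (S ∪ ((S * S) \ S)) := by
    intro c hc
    rw [Finset.mem_mul] at hc
    obtain ⟨a, ha, b, hb, rfl⟩ := hc
    rw [Finset.mem_insert, Finset.mem_union, Finset.mem_sdiff]
    rcases Finset.mem_insert.mp ha with rfl | ha
    · rcases Finset.mem_insert.mp hb with rfl | hb
      · left; simp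
      · right; left; simpa using hb
    · rcases Finset.mem_insert.mp hb with rfl | hb
      · right; left; simpa using ha
      · by_cases hmem : a * b ∈ S
        · right; left; exact hmem
        · right; right; exact ⟨Finset.mul_mem_mul ha hb, hmem⟩
  have h2 := Finset.card_le_card hsub
  have h3 : (insert 1 (S ∪ ((S * S) \ S))).card ≤ (S ∪ ((S * S) \ S)).card + 1 :=
    Finset.card_insert_le _ _
  have h4 : (S ∪ ((S * S) \ S)).card ≤ S.card + ((S * S) \ S).card := Finset.card_union_le _ _
  have h5 : (insert 1 S).card = S.card + 1 := Finset.card_insert_of_notMem h1S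
  omega

end Kemperman

/-! ### Vertex-transitive oriented graphs -/

section Graph

open Classical

variable {V : Type*}

/-- `σ` is an automorphism of the digraph with arc relation `adj`. -/
def IsAut (adj : V → V → Prop) (σ : Equiv.Perm V) : Prop :=
  ∀ a b, adj (σ a) (σ b) ↔ adj a b

theorem isAut_mul {adj : V → V → Prop} {σ τ : Equiv.Perm V} (hσ : IsAut adj σ)
    (hτ : IsAut adj τ) : IsAut adj (σ * τ) := by
  intro a b
  rw [Equiv.Perm.mul_apply, Equiv.Perm.mul_apply, hσ, hτ]

theorem isAut_inv {adj : V → V → Prop} {σ : Equiv.Perm V} (hσ : IsAut adj σ) :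
    IsAut adj σ⁻¹ := by
  intro a b
  rw [← hσ (σ⁻¹ a) (σ⁻¹ b)]
  simp

variable [Fintype V]

/-- The automorphisms sending `v` to `u`. -/
noncomputable def fib (adj : V → V → Prop) (v u : V) : Finset (Equiv.Perm V) :=
  Finset.univ.filter (fun σ => IsAut adj σ ∧ σ v = u)

theorem card_fib {adj : V → V → Prop}
    (htrans : ∀ u v : V, ∃ σ : Equiv.Perm V, IsAut adj σ ∧ σ u = v) (v u : V) :
    (fib adj v u).card = (fib adj v v).card := by
  obtain ⟨τ, hτ, hτv⟩ := htrans v u
  have : fib adj v u = (fib adj v v).image (τ * ·) := by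
    ext ρ
    simp only [fib, Finset.mem_filter, Finset.mem_univ, true_and, Finset.mem_image]
    constructor
    · rintro ⟨hρ, hρv⟩
      refine ⟨τ⁻¹ * ρ, ⟨isAut_mul (isAut_inv hτ) hρ, ?_⟩, by simp⟩
      rw [Equiv.Perm.mul_apply, hρv, ← hτv]
      simp
    · rintro ⟨σ, ⟨hσ, hσv⟩, rfl⟩
      exact ⟨isAut_mul hτ hσ, by rw [Equiv.Perm.mul_apply, hσv, hτv]⟩
  rw [this, Finset.card_image_of_injective _ (mul_right_injective τ)]

/-- The automorphisms sending `v` into the vertex set `N` number `|N|` times the stabilizer. -/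
theorem card_filter_aut {adj : V → V → Prop}
    (htrans : ∀ u v : V, ∃ σ : Equiv.Perm V, IsAut adj σ ∧ σ u = v) (v : V) (N : Finset V) :
    (Finset.univ.filter (fun σ : Equiv.Perm V => IsAut adj σ ∧ σ v ∈ N)).card =
      N.card * (fib adj v v).card := by
  have hmaps : ∀ σ ∈ Finset.univ.filter (fun σ : Equiv.Perm V => IsAut adj σ ∧ σ v ∈ N),
      (fun σ : Equiv.Perm V => σ v) σ ∈ N := by
    intro σ hσ
    exact (Finset.mem_filter.mp hσ).2.2
  rw [Finset.card_eq_sum_card_fiberwise hmaps]
  have : ∀ u ∈ N, ((Finset.univ.filter (fun σ : Equiv.Perm V => IsAut adj σ ∧ σ v ∈ N)).filter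
      (fun σ => σ v = u)).card = (fib adj v v).card := by
    intro u hu
    rw [← card_fib htrans v u]
    congr 1
    ext σ
    simp only [fib, Finset.mem_filter, Finset.mem_univ, true_and]
    constructor
    · rintro ⟨⟨h1, _⟩, h3⟩
      exact ⟨h1, h3⟩
    · rintro ⟨h1, h3⟩
      exact ⟨⟨h1, by rw [h3]; exact hu⟩, h3⟩
  rw [Finset.sum_congr rfl this, Finset.sum_const, smul_eq_mul]

end Graph

/-- **Seymour's second neighbourhood conjecture holds for vertex-transitive oriented graphs.**

Let `adj` be the arc relation of a finite oriented graph on `V` (no loops and no pair of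
opposite arcs, both expressed by `hasym`), and suppose that its automorphism group acts
transitively on the vertices.  Then every vertex `v` satisfies `|N₁⁺(v)| ≤ |N₂⁺(v)|`, where
`N₁⁺(v)` is the set of out-neighbours of `v` and `N₂⁺(v)` is the set of vertices at directed
distance exactly two from `v`. -/
theorem result {V : Type*} [Fintype V] (adj : V → V → Prop)
    (hasym : ∀ u v : V, adj u v → ¬ adj v u)
    (htrans : ∀ u v : V, ∃ σ : Equiv.Perm V, (∀ a b : V, adj (σ a) (σ b) ↔ adj a b) ∧ σ u = v)
    (v : V) :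
    Set.ncard {u : V | adj v u} ≤
      Set.ncard {w : V | w ≠ v ∧ ¬ adj v w ∧ ∃ u : V, adj v u ∧ adj u w} := by
  classical
  have htrans' : ∀ u v : V, ∃ σ : Equiv.Perm V, IsAut adj σ ∧ σ u = v := htrans
  set N1 : Finset V := Finset.univ.filter (fun u => adj v u) with hN1
  set N2 : Finset V :=
    Finset.univ.filter (fun w => w ≠ v ∧ ¬ adj v w ∧ ∃ u : V, adj v u ∧ adj u w) with hN2
  have e1 : Set.ncard {u : V | adj v u} = N1.card := by
    rw [← Set.ncard_coe_finset]; congr 1; ext u; simp [hN1]
  have e2 : Set.ncard {w : V | w ≠ v ∧ ¬ adj v w ∧ ∃ u : V, adj v u ∧ adj u w} = N2.card := by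
    rw [← Set.ncard_coe_finset]; congr 1; ext u; simp [hN2]
  rw [e1, e2]
  set S : Finset (Equiv.Perm V) :=
    Finset.univ.filter (fun σ : Equiv.Perm V => IsAut adj σ ∧ σ v ∈ N1) with hS
  set S2 : Finset (Equiv.Perm V) :=
    Finset.univ.filter (fun σ : Equiv.Perm V => IsAut adj σ ∧ σ v ∈ N2) with hS2
  have memS : ∀ σ : Equiv.Perm V, σ ∈ S ↔ IsAut adj σ ∧ adj v (σ v) := by
    intro σ; simp [hS, hN1]
  have hSinv : ∀ s ∈ S, s⁻¹ ∉ S := by
    intro σ hσ hσ'
    rw [memS] at hσ hσ'
    have h1 : adj (σ v) (σ (σ⁻¹ v)) := (hσ.1 v (σ⁻¹ v)).mpr hσ'.2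
    have h2 : adj (σ v) v := by simpa using h1
    exact hasym _ _ hσ.2 h2
  have hkey := card_le_card_mul_self_sdiff hSinv
  have hsub : (S * S) \ S ⊆ S2 := by
    intro g hg
    rw [Finset.mem_sdiff, Finset.mem_mul] at hg
    obtain ⟨⟨σ, hσ, τ, hτ, rfl⟩, hnot⟩ := hg
    rw [memS] at hσ hτ hnot
    have haut : IsAut adj (σ * τ) := isAut_mul hσ.1 hτ.1
    have h1 : adj (σ v) (σ (τ v)) := (hσ.1 v (τ v)).mpr hτ.2
    simp only [hS2, hN2, Finset.mem_filter, Finset.mem_univ, true_and]
    refine ⟨haut, ?_, ?_, σ v, hσ.2, ?_⟩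
    · intro heq
      rw [Equiv.Perm.mul_apply] at heq
      rw [heq] at h1
      exact hasym _ _ hσ.2 h1
    · intro hadj
      exact hnot ⟨haut, hadj⟩
    · rw [Equiv.Perm.mul_apply]
      exact h1
  have c1 : S.card = N1.card * (fib adj v v).card := card_filter_aut htrans' v N1
  have c2 : S2.card = N2.card * (fib adj v v).card := card_filter_aut htrans' v N2
  have hpos : 0 < (fib adj v v).card := by
    apply Finset.card_pos.mpr
    refine ⟨1, ?_⟩
    simp only [fib, Finset.mem_filter, Finset.mem_univ, true_and]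
    exact ⟨fun a b => by simp, by simp⟩
  have hle : N1.card * (fib adj v v).card ≤ N2.card * (fib adj v v).card := by
    rw [← c1, ← c2]
    exact hkey.trans (Finset.card_le_card hsub)
  exact Nat.le_of_mul_le_mul_right hle hpos

end Vale.Agent.Results.P038.VertexTransitiveSNC
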